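import Vale.Agent.P133.R2.H695.Defs
import Vale.Agent.P133.R2.H695.BuiltT
import Vale.Agent.P133.H832.BuiltIB

/-!
P133 (helper810): question (b) for the class `BuiltT`, from the case of upper semicontinuous fields
over spaces of transfinite inductive dimension; separation in the form `IsSep`.
-/

namespace Vale.Agent.P133.R2.H810

open Vale.Agent.P133.Statement Vale.Agent.P133F Vale.Agent.P133.H681 Vale.Agent.P133.H832
  Vale.Agent.P133.H695

universe u

/-- separation along algebras for which weakly purely infinite implies purely infinite -/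
theorem wpi_sep {K : Type u} {C : K → Type u} [∀ k, NonUnitalCStarAlgebra (C k)]
    [∀ k, PartialOrder (C k)] [∀ k, StarOrderedRing (C k)]
    {A : Type u} [NonUnitalCStarAlgebra A] [PartialOrder A] [StarOrderedRing A]
    (h : IsSepAlong C A) (hC : ∀ k, WeaklyPurelyInfinite (C k) → PurelyInfinite (C k)) :
    WeaklyPurelyInfinite A → PurelyInfinite A := by
  intro hW
  obtain ⟨m, hm⟩ := wpi_elementwise hW
  refine pi_of_eltPI (eltPI_sep hm fun J₁ J₂ h1 h2 w hw ε hε => ?_)
  obtain ⟨I₁, I₂, hI₁, hI₂, h12, ⟨w', hw1, hw2, hw3⟩, k, φ, hφ, hk⟩ :=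
    h J₁ J₂ h1 h2 w (inSum_iff.2 hw) ε hε
  exact ⟨I₁, I₂, hI₁, hI₂, h12, ⟨w', hw1, inSum_iff.1 hw2, inSum_iff.1 hw3⟩, C k, inferInstance,
    φ, hφ, fun z => (hk z).trans inSum_closure,
    diag_of_eltPI (C k) (eltPI_of _ (hC k (wpi_of_surj φ hφ hW)))⟩

/-- question (b) for the class `BuiltT`, from the case of fields -/
theorem builtT_wpi (htf : ∀ (X : Type u) [TopologicalSpace X] [LocallyCompactSpace X] [T2Space X]
      (_ : ∀ K : Set X, IsCompact K → TrInd K) (B : X → Type u)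
      [∀ t, NonUnitalCStarAlgebra (B t)] [∀ t, PartialOrder (B t)] [∀ t, StarOrderedRing (B t)]
      (A : Type u) [NonUnitalCStarAlgebra A] [PartialOrder A] [StarOrderedRing A]
      (_ : IsSectionAlgebra B A) (_ : ∀ t, WeaklyPurelyInfinite (B t) → PurelyInfinite (B t)),
      WeaklyPurelyInfinite A → PurelyInfinite A)
    {A : Type u} [NonUnitalCStarAlgebra A] [PartialOrder A] [StarOrderedRing A]
    (hA : BuiltT A) : WeaklyPurelyInfinite A → PurelyInfinite A := by
  induction hA with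
  | old A hA => exact builtI_wpi hA
  | sep K C A h _ hC => exact wpi_sep h hC
  | ext J A B h _ _ hJ hB =>
    intro hA
    have h2 := (wpi_ext h).2 hA
    exact (wpi_ext h).1.2 ⟨hJ h2.1, hB h2.2⟩
  | union I J A h _ hJ =>
    obtain ⟨φ, hφ, hid, hd⟩ := h
    exact b_union φ hφ hid hd hJ
  | prod I B _ hB => exact wpi_bddProd B hB
  | func A X _ hA => exact wpi_funAlg A X hA
  | field X hX B A h _ hB =>
    exact fun hA => (wpi_field hX h).1.2 fun t => hB t ((wpi_field hX h).2 hA t)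
  | tfield X hX B A h _ hB => exact htf X hX B A h hB

/-- separation, with the quotients bound inside the separation property -/
theorem builtT_of_isSep {A : Type u} [NonUnitalCStarAlgebra A] [PartialOrder A]
    [StarOrderedRing A] (h : IsSep (fun B _ _ => ∀ _ : StarOrderedRing B, BuiltT B) A) :
    BuiltT A := by
  let K : Type u := {q : Submodule ℂ A × Submodule ℂ A × A × ℝ //
    IsClosedIdeal q.1 ∧ IsClosedIdeal q.2.1 ∧ InSum q.1 q.2.1 q.2.2.1 ∧ 0 < q.2.2.2}
  have h' : ∀ k : K, _ := fun k => h k.1.1 k.1.2.1 k.2.1 k.2.2.1 _ k.2.2.2.1 _ k.2.2.2.2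
  choose I₁ I₂ hI₁ hI₂ h12 hw B i1 i2 i3 φ hφ hk hB using h'
  refine BuiltT.sep K B A ?_ fun k => hB k (i3 k)
  intro J₁ J₂ h1 h2 w hw' ε hε
  let k : K := ⟨(J₁, J₂, w, ε), h1, h2, hw', hε⟩
  exact ⟨I₁ k, I₂ k, hI₁ k, hI₂ k, h12 k, hw k, k, φ k, hφ k, hk k⟩

end Vale.Agent.P133.R2.H810
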