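import Vale.Agent.P133.R2.H810.CField

/-!
P133 (helper810): one stage of the construction of orthogonal pairs over C-spaces.
-/

open scoped ComplexOrder ZeroAtInfty Topology
open Filter

namespace Vale.Agent.P133.R2.H810

open Vale.Agent.P133 Vale.Agent.P133.Statement Vale.Agent.P133F Vale.Agent.P133.H832
  Vale.Agent.P133.H681 Vale.Agent.P133.R2.H28

universe u v

/-- the parameter space -/
abbrev PQ : Type := ℕ × ℕ → unitInterval

/-- coordinate functions -/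
def co (i l : ℕ) : C(PQ, ℝ) := ⟨fun q => (q (i, l) : ℝ), by fun_prop⟩

theorem co_apply (i l : ℕ) (q : PQ) : co i l q = (q (i, l) : ℝ) := rfl

theorem co_mem (i l : ℕ) (q : PQ) : 0 ≤ co i l q ∧ co i l q ≤ 1 := (q (i, l)).2

/-- the weight of the old element -/
noncomputable def gf (i p : ℕ) : C(PQ, ℝ) := ⟨fun q => max (1 - 2 * ∑ l : Fin p, (q (i, l.1) : ℝ)) 0, by fun_prop⟩

theorem gf_apply (i p : ℕ) (q : PQ) :
    gf i p q = max (1 - 2 * ∑ l : Fin p, (q (i, l.1) : ℝ)) 0 := rfl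

theorem gf_mem (i p : ℕ) (q : PQ) : 0 ≤ gf i p q ∧ gf i p q ≤ 1 := by
  refine ⟨le_max_right _ _, max_le ?_ zero_le_one⟩
  have : 0 ≤ ∑ l : Fin p, (q (i, l.1) : ℝ) := Finset.sum_nonneg fun l _ => (q (i, l.1)).2.1
  linarith

/-- the weight of the first element of the pair -/
noncomputable def hf (i l : ℕ) : C(PQ, ℝ) := ⟨fun q => max ((q (i, l) : ℝ) - 1 / 2) 0, by fun_prop⟩

theorem hf_apply (i l : ℕ) (q : PQ) : hf i l q = max ((q (i, l) : ℝ) - 1 / 2) 0 := rfl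

theorem hf_mem (i l : ℕ) (q : PQ) : 0 ≤ hf i l q ∧ hf i l q ≤ 1 := by
  refine ⟨le_max_right _ _, max_le ?_ zero_le_one⟩
  have := (q (i, l)).2.2
  linarith

section

variable {A : Type u} [NonUnitalCStarAlgebra A]

/-- multiplication by a real function of the parameter -/
noncomputable def sm (φ : C(PQ, ℝ)) (g : C₀(PQ, A)) : C₀(PQ, A) :=
  mk0 (fun q => ((φ q : ℝ) : ℂ) • g q) (by
    have := g.continuous
    fun_prop)

theorem sm_apply (φ : C(PQ, ℝ)) (g : C₀(PQ, A)) (q : PQ) :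
    sm φ g q = ((φ q : ℝ) : ℂ) • g q := rfl

theorem sm_nonneg [PartialOrder C₀(PQ, A)] [StarOrderedRing C₀(PQ, A)] {φ : C(PQ, ℝ)}
    (hφ : ∀ q, 0 ≤ φ q ∧ φ q ≤ 1) {g : C₀(PQ, A)} (hg : 0 ≤ g) : 0 ≤ sm φ g := by
  obtain ⟨k, rfl⟩ := CStarAlgebra.nonneg_iff_eq_star_mul_self.1 hg
  let χ : C(PQ, ℝ) := ⟨fun q => √(φ q), by fun_prop⟩
  have e1 : sm φ (star k * k) = star (sm χ k) * sm χ k := by
    ext q
    have hχ : (χ q : ℝ) * χ q = φ q := Real.mul_self_sqrt (hφ q).1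
    rw [sm_apply, ZeroAtInftyContinuousMap.coe_mul, ZeroAtInftyContinuousMap.coe_mul,
      Pi.mul_apply, Pi.mul_apply, ZeroAtInftyContinuousMap.coe_star,
      ZeroAtInftyContinuousMap.coe_star, Pi.star_apply, Pi.star_apply, sm_apply, star_smul,
      RCLike.star_def, Complex.conj_ofReal, smul_mul_smul_comm, ← Complex.ofReal_mul, hχ]
  rw [e1]
  exact star_mul_self_nonneg _

theorem sm_mem_her {φ : C(PQ, ℝ)} (hφ : ∀ q, 0 ≤ φ q ∧ φ q ≤ 1) {r g : C₀(PQ, A)}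
    (hg : g ∈ closure (Set.range fun w => r * w * r)) :
    sm φ g ∈ closure (Set.range fun w => r * w * r) := by
  rw [Metric.mem_closure_iff] at hg ⊢
  intro ε hε
  obtain ⟨_, ⟨w, rfl⟩, hw⟩ := hg ε hε
  refine ⟨r * sm φ w * r, ⟨_, rfl⟩, ?_⟩
  rw [dist_eq_norm] at hw ⊢
  refine lt_of_le_of_lt (c0_norm_le _ (norm_nonneg _) fun q => ?_) hw
  have e1 : (sm φ g - r * sm φ w * r) q = ((φ q : ℝ) : ℂ) • (g - r * w * r) q := by
    simp only [ZeroAtInftyContinuousMap.coe_sub, ZeroAtInftyContinuousMap.coe_mul, Pi.sub_apply,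
      Pi.mul_apply, sm_apply, smul_sub, mul_smul_comm, smul_mul_assoc]
  rw [e1, norm_smul, Complex.norm_real, Real.norm_of_nonneg (hφ q).1]
  calc _ ≤ 1 * ‖(g - r * w * r) q‖ := by
        gcongr; exact (hφ q).2
    _ ≤ _ := by rw [one_mul]; exact c0_apply_le _ q

theorem her_add {M : Type u} [NonUnitalCStarAlgebra M] {r x y : M}
    (hx : x ∈ closure (Set.range fun w => r * w * r))
    (hy : y ∈ closure (Set.range fun w => r * w * r)) :
    x + y ∈ closure (Set.range fun w => r * w * r) := by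
  refine map_mem_closure₂ (f := fun a b : M => a + b) (by fun_prop) hx hy ?_
  rintro _ ⟨w, rfl⟩ _ ⟨v, rfl⟩
  exact ⟨w + v, by simp only [mul_add, add_mul]⟩

theorem her_zero {M : Type u} [NonUnitalCStarAlgebra M] {r : M} :
    (0 : M) ∈ closure (Set.range fun w => r * w * r) :=
  subset_closure ⟨0, by simp⟩

theorem her_sum {M : Type u} [NonUnitalCStarAlgebra M] {r : M} {ι : Type} (s : Finset ι)
    {x : ι → M} (hx : ∀ i ∈ s, x i ∈ closure (Set.range fun w => r * w * r)) :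
    ∑ i ∈ s, x i ∈ closure (Set.range fun w => r * w * r) :=
  Finset.sum_induction _ (fun b => b ∈ closure (Set.range fun w => r * w * r))
    (fun _ _ => her_add) her_zero hx

theorem her_self {M : Type u} [NonUnitalCStarAlgebra M] [PartialOrder M] [StarOrderedRing M]
    {r : M} (hr : 0 ≤ r) : r ∈ closure (Set.range fun w => r * w * r) := by
  have h1 := cfc_mem_her (IsSelfAdjoint.of_nonneg hr) (f := fun s : ℝ => s) continuous_id
    fun s => le_rfl
  rwa [cfcₙ_id' ℝ r] at h1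

theorem ev_nonneg [PartialOrder A] [StarOrderedRing A] [PartialOrder C₀(PQ, A)]
    [StarOrderedRing C₀(PQ, A)] {g : C₀(PQ, A)} (hg : 0 ≤ g) (q : PQ) : 0 ≤ g q := by
  obtain ⟨k, rfl⟩ := CStarAlgebra.nonneg_iff_eq_star_mul_self.1 hg
  exact star_mul_self_nonneg (k q)

theorem smul_nonneg' [PartialOrder A] [StarOrderedRing A] {c : ℝ} (hc : 0 ≤ c) {a : A}
    (ha : 0 ≤ a) : 0 ≤ ((c : ℝ) : ℂ) • a := by
  rw [Complex.coe_smul]
  exact smul_nonneg hc ha

/-- domination in quotients -/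
theorem dom_norm [PartialOrder A] [StarOrderedRing A] {u v : A} (hu : 0 ≤ u) (hv : 0 ≤ v) {c : ℝ}
    (hc : 1 / 4 ≤ c) {C : Type u} [NonUnitalCStarAlgebra C] (ψ : A →⋆ₙₐ[ℂ] C) :
    ‖ψ u‖ ≤ 4 * ‖ψ (((c : ℝ) : ℂ) • u + v)‖ := by
  let _ : PartialOrder C := CStarAlgebra.spectralOrder C
  let _ : StarOrderedRing C := CStarAlgebra.spectralOrderedRing C
  have hp : ∀ w : A, 0 ≤ w → 0 ≤ ψ w := by
    intro w hw
    obtain ⟨k, rfl⟩ := CStarAlgebra.nonneg_iff_eq_star_mul_self.1 hw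
    rw [map_mul, map_star]
    exact star_mul_self_nonneg _
  have h1 : 0 ≤ ψ (((c : ℝ) : ℂ) • u) := hp _ (smul_nonneg' (by linarith) hu)
  have h2 : ψ (((c : ℝ) : ℂ) • u) ≤ ψ (((c : ℝ) : ℂ) • u + v) := by
    rw [map_add]
    exact le_add_of_nonneg_right (hp v hv)
  have h3 := CStarAlgebra.norm_le_norm_of_nonneg_of_le h1 h2
  rw [map_smul, norm_smul, Complex.norm_real, Real.norm_of_nonneg (by linarith)] at h3
  nlinarith [norm_nonneg (ψ u)]

end

theorem exists_pos_le {p : ℕ} {f : Fin p → ℝ} (hf : ∀ l, 0 < f l) :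
    ∃ c : ℝ, 0 < c ∧ ∀ l, c ≤ f l := by
  have h0 : 0 ≤ ∑ l, (f l)⁻¹ := Finset.sum_nonneg fun l _ => (inv_pos.2 (hf l)).le
  refine ⟨(1 + ∑ l, (f l)⁻¹)⁻¹, by positivity, fun l => ?_⟩
  rw [inv_le_comm₀ (by positivity) (hf l)]
  have h1 : (f l)⁻¹ ≤ ∑ l, (f l)⁻¹ := Finset.single_le_sum (f := fun l => (f l)⁻¹)
    (fun i _ => (inv_pos.2 (hf i)).le) (Finset.mem_univ l)
  linarith

section

variable {X : Type v} {B : X → Type u} [∀ t, NonUnitalCStarAlgebra (B t)]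
  {A : Type u} [NonUnitalCStarAlgebra A] {π : ∀ t, A →⋆ₙₐ[ℂ] B t}

/-- the next set -/
def nextS (i p : ℕ) (U : Fin p → Set X) (S : Set (X × PQ)) : Set (X × PQ) :=
  {x | x ∈ S ∧ (∀ l l' : Fin p, l ≠ l' → (x.2 (i, l.1) : ℝ) = 0 ∨ (x.2 (i, l'.1) : ℝ) = 0) ∧
    ∀ l : Fin p, (x.2 (i, l.1) : ℝ) ≠ 0 → x.1 ∈ U l}

/-- the next element -/
noncomputable def nextR (i p : ℕ) (z : Fin p → C₀(PQ, A)) (r : C₀(PQ, A)) : C₀(PQ, A) :=
  ∑ l, sm (co i l.1) (z l) + sm (gf i p) r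

/-- the element that is split off -/
noncomputable def partX (i p : ℕ) (y : Fin p → C₀(PQ, A)) : C₀(PQ, A) := ∑ l : Fin p, sm (hf i l.1) (y l)

theorem sum_coe {p : ℕ} (z : Fin p → C₀(PQ, A)) (q : PQ) : (∑ l, z l) q = ∑ l, z l q :=
  map_sum (evq q) z Finset.univ

theorem nextR_apply (i p : ℕ) (z : Fin p → C₀(PQ, A)) (r : C₀(PQ, A)) (q : PQ) :
    nextR i p z r q = ∑ l, ((co i l.1 q : ℝ) : ℂ) • z l q + ((gf i p q : ℝ) : ℂ) • r q := by
  rw [nextR, ZeroAtInftyContinuousMap.coe_add, Pi.add_apply, sum_coe]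
  rfl

theorem partX_apply (i p : ℕ) (y : Fin p → C₀(PQ, A)) (q : PQ) :
    partX i p y q = ∑ l : Fin p, ((hf i l.1 q : ℝ) : ℂ) • y l q := by
  rw [partX, sum_coe]
  rfl

theorem sum_le_of_one {p : ℕ} {c : Fin p → ℝ} (h0 : ∀ l, 0 ≤ c l)
    (h1 : ∀ l l', l ≠ l' → c l = 0 ∨ c l' = 0) {b : ℝ} (hb : 0 ≤ b) (h : ∀ l, c l ≤ b) :
    ∑ l, c l ≤ b := by
  by_cases hz : ∀ l, c l = 0
  · simp only [hz, Finset.sum_const_zero]; exact hb
  · push Not at hz
    obtain ⟨l, hl⟩ := hz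
    rw [Finset.sum_eq_single l (fun l' _ hl' => (h1 l l' (Ne.symm hl')).resolve_left hl)
      (fun h => absurd (Finset.mem_univ l) h)]
    exact h l

variable [PartialOrder A] [StarOrderedRing A] [PartialOrder C₀(PQ, A)]
    [StarOrderedRing C₀(PQ, A)]

omit [PartialOrder A] [StarOrderedRing A] in
theorem nextR_nonneg (i p : ℕ) {z : Fin p → C₀(PQ, A)} (hz : ∀ l, 0 ≤ z l) {r : C₀(PQ, A)}
    (hr : 0 ≤ r) : 0 ≤ nextR i p z r :=
  add_nonneg (Finset.sum_nonneg fun l _ => sm_nonneg (co_mem i l.1) (hz l))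
    (sm_nonneg (gf_mem i p) hr)

omit [PartialOrder A] [StarOrderedRing A] in
theorem partX_nonneg (i p : ℕ) {y : Fin p → C₀(PQ, A)} (hy : ∀ l, 0 ≤ y l) :
    0 ≤ partX i p y :=
  Finset.sum_nonneg fun l _ => sm_nonneg (hf_mem i l.1) (hy l)

omit [PartialOrder A] [StarOrderedRing A] in
theorem nextR_mem (i p : ℕ) {z : Fin p → C₀(PQ, A)} {r : C₀(PQ, A)} (hr : 0 ≤ r)
    (hz : ∀ l, z l ∈ closure (Set.range fun w => r * w * r)) :
    nextR i p z r ∈ closure (Set.range fun w => r * w * r) :=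
  her_add (her_sum _ fun l _ => sm_mem_her (co_mem i l.1) (hz l))
    (sm_mem_her (gf_mem i p) (her_self hr))

omit [PartialOrder A] [StarOrderedRing A] [PartialOrder C₀(PQ, A)]
    [StarOrderedRing C₀(PQ, A)] in
theorem partX_mem (i p : ℕ) {y : Fin p → C₀(PQ, A)} {r : C₀(PQ, A)}
    (hy : ∀ l, y l ∈ closure (Set.range fun w => r * w * r)) :
    partX i p y ∈ closure (Set.range fun w => r * w * r) :=
  her_sum _ fun l _ => sm_mem_her (hf_mem i l.1) (hy l)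

/-- the next element is full over the next set -/
theorem nextR_full {a : A} {ε : ℝ} (i p : ℕ) {U : Fin p → Set X} {S : Set (X × PQ)}
    {z : Fin p → C₀(PQ, A)} (hz : ∀ l, 0 ≤ z l) {r : C₀(PQ, A)} (hr : 0 ≤ r)
    (hS : FullAt π a ε S r) (hzS : ∀ l, FullAt π a ε {x | x ∈ S ∧ x.1 ∈ U l} (z l)) :
    FullAt π a ε (nextS i p U S) (nextR i p z r) := by
  obtain ⟨η₀, hη₀, H0⟩ := hS
  choose η hη H using hzS
  obtain ⟨c, hc, hcη⟩ := exists_pos_le hη
  refine ⟨min (η₀ / 4) (c / 4), by positivity, fun s q hsq C iC ψ hψ => ?_⟩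
  obtain ⟨hsS, hone, hU⟩ := hsq
  have hterm : ∀ l, 0 ≤ ((co i l.1 q : ℝ) : ℂ) • z l q := fun l =>
    smul_nonneg' (co_mem i l.1 q).1 (ev_nonneg (hz l) q)
  have hrq : 0 ≤ ((gf i p q : ℝ) : ℂ) • r q := smul_nonneg' (gf_mem i p q).1 (ev_nonneg hr q)
  by_cases hcase : ∀ l : Fin p, co i l.1 q ≤ 3 / 8
  · have hsum : ∑ l : Fin p, (q (i, l.1) : ℝ) ≤ 3 / 8 :=
      sum_le_of_one (fun l => (co_mem i l.1 q).1) (fun l l' h => hone l l' h) (by norm_num) hcase
    have hg : 1 / 4 ≤ gf i p q := by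
      rw [gf_apply]
      refine le_max_of_le_left ?_
      linarith
    refine H0 s q hsS C iC ψ ?_
    have h1 := dom_norm (ev_nonneg hr q) (Finset.sum_nonneg fun l (_ : l ∈ Finset.univ) =>
      hterm l) hg (ψ.comp (π s))
    rw [add_comm, ← nextR_apply] at h1
    have h2 : ‖(ψ.comp (π s)) (nextR i p z r q)‖ ≤ η₀ / 4 := hψ.trans (min_le_left _ _)
    calc ‖ψ (π s (r q))‖ ≤ 4 * ‖(ψ.comp (π s)) (nextR i p z r q)‖ := h1
      _ ≤ η₀ := by linarith
  · push Not at hcase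
    obtain ⟨l, hl⟩ := hcase
    have hsU : s ∈ U l := hU l (by
      have : (q (i, l.1) : ℝ) = co i l.1 q := rfl
      rw [this]
      intro h
      rw [h] at hl
      norm_num at hl)
    refine H l s q ⟨hsS, hsU⟩ C iC ψ ?_
    have h0 : 0 ≤ ∑ k ∈ Finset.univ.erase l, ((co i k.1 q : ℝ) : ℂ) • z k q +
        ((gf i p q : ℝ) : ℂ) • r q :=
      add_nonneg (Finset.sum_nonneg fun k _ => hterm k) hrq
    have h1 := dom_norm (ev_nonneg (hz l) q) h0 (by linarith : 1 / 4 ≤ co i l.1 q)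
      (ψ.comp (π s))
    rw [← add_assoc, Finset.add_sum_erase _ (fun k : Fin p => ((co i k.1 q : ℝ) : ℂ) • z k q)
      (Finset.mem_univ l), ← nextR_apply] at h1
    have h2 : ‖(ψ.comp (π s)) (nextR i p z r q)‖ ≤ c / 4 := hψ.trans (min_le_right _ _)
    have h3 := hcη l
    calc ‖ψ (π s (z l q))‖ ≤ 4 * ‖(ψ.comp (π s)) (nextR i p z r q)‖ := h1
      _ ≤ η l := by linarith

omit [PartialOrder A] [StarOrderedRing A] [PartialOrder C₀(PQ, A)]
    [StarOrderedRing C₀(PQ, A)] in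
/-- orthogonality -/
theorem partX_mul (i p : ℕ) {U : Fin p → Set X} {S : Set (X × PQ)} {y z : Fin p → C₀(PQ, A)}
    (hyz : ∀ l, y l * z l = 0) {r : C₀(PQ, A)} {x : X × PQ} (hx : x ∈ nextS i p U S) :
    partX i p y x.2 * nextR i p z r x.2 = 0 := by
  obtain ⟨-, hone, -⟩ := hx
  set q := x.2 with hq
  rw [partX_apply, nextR_apply, Finset.sum_mul]
  refine Finset.sum_eq_zero fun l _ => ?_
  by_cases hl : (q (i, l.1) : ℝ) ≤ 1 / 2
  · have : hf i l.1 q = 0 := by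
      rw [hf_apply]; exact max_eq_right (by linarith)
    rw [this, Complex.ofReal_zero, zero_smul, zero_mul]
  · push Not at hl
    have hl0 : (q (i, l.1) : ℝ) ≠ 0 := by
      intro h; rw [h] at hl; norm_num at hl
    have hg : gf i p q = 0 := by
      rw [gf_apply]
      refine max_eq_right ?_
      have h1 : (q (i, l.1) : ℝ) ≤ ∑ k : Fin p, (q (i, k.1) : ℝ) :=
        Finset.single_le_sum (f := fun k : Fin p => (q (i, k.1) : ℝ))
          (fun k _ => (q (i, k.1)).2.1) (Finset.mem_univ l)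
      linarith
    have hsum : ∑ k : Fin p, ((co i k.1 q : ℝ) : ℂ) • z k q = ((co i l.1 q : ℝ) : ℂ) • z l q := by
      refine Finset.sum_eq_single l (fun k _ hk => ?_) (fun h => absurd (Finset.mem_univ l) h)
      have h1 := (hone l k (Ne.symm hk)).resolve_left hl0
      have h2 : co i k.1 q = 0 := h1
      rw [h2, Complex.ofReal_zero, zero_smul]
    have h3 : y l q * z l q = 0 := by
      have := congrArg (fun g : C₀(PQ, A) => g q) (hyz l)
      exact this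
    rw [hg, hsum, Complex.ofReal_zero, zero_smul, add_zero, smul_mul_smul_comm, h3, smul_zero]

end

end Vale.Agent.P133.R2.H810
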