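import Vale.Agent.P133.R2.H778.Family

/-!
P133 (helper810): property C for sequences of finite covers of a compact set.
-/

namespace Vale.Agent.P133.R2.H810

universe v

theorem family' {X : Type v} [TopologicalSpace X] [T2Space X] {K : Set X} (hK : IsCompact K)
    (hC : Vale.Agent.P133.R2.H778.PropertyC K) (p : ℕ → ℕ) (U : ∀ i, Fin (p i) → Set X)
    (hU : ∀ i l, IsOpen (U i l)) (hcov : ∀ i, ∀ x ∈ K, ∃ l, x ∈ U i l) :
    ∃ (m : ℕ) (V : ∀ i, Fin (p i) → Set X), (∀ i l, IsOpen (V i l) ∧ V i l ⊆ U i l) ∧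
      (∀ i l l', l ≠ l' → Disjoint (V i l) (V i l')) ∧ ∀ x ∈ K, ∃ i < m, ∃ l, x ∈ V i l := by
  obtain ⟨M, n, v, hvo, hvU, hd, hc⟩ := Vale.Agent.P133.R2.H778.family hK hC
    (fun i => Set.range (U i)) fun i => by
      refine ⟨?_, fun x hx => ?_⟩
      · rintro _ ⟨l, rfl⟩
        exact hU i l
      · obtain ⟨l, hl⟩ := hcov i x hx
        exact ⟨_, ⟨l, rfl⟩, hl⟩
  have hl : ∀ j, ∃ l : Fin (p (n j)), v j ⊆ U (n j) l := by
    intro j
    obtain ⟨_, ⟨l, rfl⟩, h⟩ := hvU j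
    exact ⟨l, h⟩
  choose lj hlj using hl
  refine ⟨∑ j, n j + 1, fun i l => ⋃ (j) (_ : n j = i ∧ (lj j).1 = l.1), v j, fun i l =>
    ⟨isOpen_iUnion fun j => isOpen_iUnion fun _ => hvo j, ?_⟩, fun i l l' hll => ?_,
    fun x hx => ?_⟩
  · intro x hx
    simp only [Set.mem_iUnion] at hx
    obtain ⟨j, ⟨hj, hl⟩, hxj⟩ := hx
    subst hj
    have : lj j = l := Fin.ext hl
    rw [← this]
    exact hlj j hxj
  · rw [Set.disjoint_left]
    intro x hx hx'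
    simp only [Set.mem_iUnion] at hx hx'
    obtain ⟨j, ⟨hj, hl⟩, hxj⟩ := hx
    obtain ⟨j', ⟨hj', hl'⟩, hxj'⟩ := hx'
    have hjj : j ≠ j' := by
      rintro rfl
      exact hll (Fin.ext (hl.symm.trans hl'))
    exact Set.disjoint_left.1 (hd j j' hjj (hj.trans hj'.symm)) hxj hxj'
  · have h1 := hc hx
    simp only [Set.mem_iUnion] at h1
    obtain ⟨j, hj⟩ := h1
    have h2 : n j ≤ ∑ j, n j := Finset.single_le_sum (f := n) (fun _ _ => Nat.zero_le _)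
      (Finset.mem_univ j)
    refine ⟨n j, by omega, lj j, ?_⟩
    simp only [Set.mem_iUnion]
    exact ⟨j, ⟨rfl, rfl⟩, hj⟩

end Vale.Agent.P133.R2.H810
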