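import Vale.Agent.P133.R2.H810.CPair
import Vale.Agent.P133.H681.C0
import Mathlib.Topology.PartitionOfUnity
import Mathlib.Topology.UrysohnsLemma

/-!
P133 (helper810): upper semicontinuous fields with parameters in a compact space `Q`.
-/

open scoped ComplexOrder ZeroAtInfty Topology
open Filter

namespace Vale.Agent.P133.R2.H810

open Vale.Agent.P133 Vale.Agent.P133.Statement Vale.Agent.P133F Vale.Agent.P133.H832
  Vale.Agent.P133.H681 Vale.Agent.P133.R2.H28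

universe u v

section

variable {Q : Type} [TopologicalSpace Q] {A : Type u} [NonUnitalCStarAlgebra A]
  {D : Type u} [NonUnitalCStarAlgebra D]

theorem hom_cont (π : A →⋆ₙₐ[ℂ] D) : Continuous π :=
  AddMonoidHomClass.continuous_of_bound π 1 fun x => by
    rw [one_mul]; exact NonUnitalStarAlgHom.norm_apply_le π x

/-- evaluation at a point -/
def evq (q : Q) : C₀(Q, A) →⋆ₙₐ[ℂ] A where
  toFun g := g q
  map_smul' _ _ := rfl
  map_zero' := rfl
  map_add' _ _ := rfl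
  map_mul' _ _ := rfl
  map_star' _ := rfl

theorem evq_apply (q : Q) (g : C₀(Q, A)) : evq q g = g q := rfl

/-- a partition of unity on which `z` is nearly constant -/
theorem exists_pu [CompactSpace Q] [T2Space Q] {V : Type u} [NormedAddCommGroup V] {z : Q → V}
    (hz : Continuous z) {ε : ℝ} (hε : 0 < ε) : ∃ (n : ℕ) (p : Fin n → Q) (f : Fin n → C(Q, ℝ)),
      (∀ i q, 0 ≤ f i q ∧ f i q ≤ 1) ∧ (∀ q, ∑ i, f i q = 1) ∧
      ∀ i q, f i q ≠ 0 → ‖z q - z (p i)‖ < ε := by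
  have hO : ∀ q0 : Q, IsOpen {q | ‖z q - z q0‖ < ε} := fun q0 =>
    isOpen_lt (by fun_prop) continuous_const
  obtain ⟨T, hT⟩ := (isCompact_univ (X := Q)).elim_nhds_subcover
    (fun q0 => {q | ‖z q - z q0‖ < ε}) (fun q0 _ => (hO q0).mem_nhds (by simp [hε]))
  have hcov : (Set.univ : Set Q) ⊆ ⋃ i : Fin T.card, {q | ‖z q - z (T.equivFin.symm i).1‖ < ε} := by
    intro q hq
    have h1 := hT.2 hq
    simp only [Set.mem_iUnion, exists_prop] at h1
    obtain ⟨s, hs, hs'⟩ := h1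
    refine Set.mem_iUnion.2 ⟨T.equivFin ⟨s, hs⟩, ?_⟩
    simpa using hs'
  obtain ⟨f, h1, h2, h3, -⟩ := exists_continuous_sum_one_of_isOpen_isCompact
    (fun i => hO (T.equivFin.symm i).1) isCompact_univ hcov
  refine ⟨T.card, fun i => (T.equivFin.symm i).1, f, fun i q => ⟨(h3 i q).1, (h3 i q).2⟩,
    fun q => ?_, fun i q hq => ?_⟩
  · have h4 := h2 (Set.mem_univ q)
    simpa using h4
  · exact h1 i (subset_tsupport _ hq)

theorem pu_est {n : ℕ} {f : Fin n → ℝ} (hf : ∀ i, 0 ≤ f i) (hs : ∑ i, f i = 1) {v : D}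
    {w : Fin n → D} {ε : ℝ} (h : ∀ i, f i ≠ 0 → ‖v - w i‖ < ε) :
    ‖v - ∑ i, ((f i : ℝ) : ℂ) • w i‖ ≤ ε := by
  have e1 : v - ∑ i, ((f i : ℝ) : ℂ) • w i = ∑ i, ((f i : ℝ) : ℂ) • (v - w i) := by
    simp only [smul_sub, Finset.sum_sub_distrib, ← Finset.sum_smul]
    rw [← Complex.ofReal_sum, hs, Complex.ofReal_one, one_smul]
  rw [e1]
  calc _ ≤ ∑ i, ‖((f i : ℝ) : ℂ) • (v - w i)‖ := norm_sum_le _ _
    _ ≤ ∑ i, f i * ε := Finset.sum_le_sum fun i _ => by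
        rw [norm_smul, Complex.norm_real, Real.norm_of_nonneg (hf i)]
        by_cases hi : f i = 0
        · rw [hi, zero_mul, zero_mul]
        · exact mul_le_mul_of_nonneg_left (h i hi).le (hf i)
    _ = ε := by rw [← Finset.sum_mul, hs, one_mul]

theorem pu_est' {n : ℕ} {f : Fin n → ℝ} (hf : ∀ i, 0 ≤ f i) (hs : ∑ i, f i ≤ 1) {v : D}
    {w : Fin n → D} {ε : ℝ} (hv : ∑ i, f i = 1 ∨ ‖v‖ ≤ ε) (h : ∀ i, f i ≠ 0 → ‖v - w i‖ < ε) :
    ‖v - ∑ i, ((f i : ℝ) : ℂ) • w i‖ ≤ ε := by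
  rcases hv with hv | hv
  · exact pu_est hf hv h
  have e1 : v - ∑ i, ((f i : ℝ) : ℂ) • w i =
      ∑ i, ((f i : ℝ) : ℂ) • (v - w i) + (((1 - ∑ i, f i : ℝ)) : ℂ) • v := by
    simp only [smul_sub, Finset.sum_sub_distrib, ← Finset.sum_smul]
    rw [← Complex.ofReal_sum, Complex.ofReal_sub, Complex.ofReal_one, sub_smul, one_smul]
    abel
  rw [e1]
  have h1 : ‖∑ i, ((f i : ℝ) : ℂ) • (v - w i)‖ ≤ ∑ i, f i * ε :=
    norm_sum_le_of_le _ fun i _ => by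
      rw [norm_smul, Complex.norm_real, Real.norm_of_nonneg (hf i)]
      by_cases hi : f i = 0
      · rw [hi, zero_mul, zero_mul]
      · exact mul_le_mul_of_nonneg_left (h i hi).le (hf i)
  have h2 : ‖(((1 - ∑ i, f i : ℝ)) : ℂ) • v‖ ≤ (1 - ∑ i, f i) * ε := by
    rw [norm_smul, Complex.norm_real, Real.norm_of_nonneg (by linarith)]
    exact mul_le_mul_of_nonneg_left hv (by linarith)
  rw [← Finset.sum_mul] at h1
  calc _ ≤ (∑ i, f i) * ε + (1 - ∑ i, f i) * ε := (norm_add_le _ _).trans (add_le_add h1 h2)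
    _ = ε := by ring

/-- continuous functions on a compact space as elements of `C₀` -/
def mk0 [CompactSpace Q] (f : Q → A) (hf : Continuous f) : C₀(Q, A) where
  toFun := f
  continuous_toFun := hf
  zero_at_infty' := by
    rw [cocompact_eq_bot]
    exact tendsto_bot

theorem mk0_apply [CompactSpace Q] (f : Q → A) (hf : Continuous f) (q : Q) :
    mk0 f hf q = f q := rfl

/-- composition with a homomorphism -/
def mp [CompactSpace Q] (π : A →⋆ₙₐ[ℂ] D) (g : C₀(Q, A)) : C₀(Q, D) :=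
  mk0 (fun q => π (g q)) ((hom_cont π).comp g.continuous)

theorem mp_apply [CompactSpace Q] (π : A →⋆ₙₐ[ℂ] D) (g : C₀(Q, A)) (q : Q) :
    mp π g q = π (g q) := rfl

theorem dense_mp [CompactSpace Q] [T2Space Q] (π : A →⋆ₙₐ[ℂ] D) (hπ : Function.Surjective π) :
    DenseRange (mp (Q := Q) π) := by
  intro z
  rw [Metric.mem_closure_iff]
  intro ε hε
  obtain ⟨n, p, f, hf, hs, h⟩ := exists_pu z.continuous (half_pos hε)
  choose a ha using fun i => hπ (z (p i))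
  have hc : Continuous fun q => ∑ i, ((f i q : ℝ) : ℂ) • a i := by fun_prop
  refine ⟨mp π (mk0 _ hc), ⟨_, rfl⟩, ?_⟩
  rw [dist_eq_norm]
  refine lt_of_le_of_lt (c0_norm_le _ (half_pos hε).le fun q => ?_) (half_lt_self hε)
  rw [ZeroAtInftyContinuousMap.coe_sub, Pi.sub_apply, mp_apply, mk0_apply, map_sum]
  simp only [map_smul, ha]
  exact pu_est (fun i => (hf i q).1) (hs q) fun i hi => h i q hi

end

section

variable {X : Type v} [TopologicalSpace X] {B : X → Type u} [∀ t, NonUnitalCStarAlgebra (B t)]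
  {A : Type u} [NonUnitalCStarAlgebra A]

/-- `A` is the algebra of sections vanishing at infinity of an upper semicontinuous field -/
structure FD (π : ∀ t, A →⋆ₙₐ[ℂ] B t) : Prop where
  surj : ∀ t, Function.Surjective (π t)
  norm : ∀ (a : A) (r : ℝ), 0 ≤ r → (∀ t, ‖π t a‖ ≤ r) → ‖a‖ ≤ r
  cpt : ∀ (a : A) (r : ℝ), 0 < r → IsCompact {t | r ≤ ‖π t a‖}
  mul : ∀ f : C(X, ℝ), (∀ t, 0 ≤ f t ∧ f t ≤ 1) → ∀ a : A, ∃ b : A, ∀ t,
    π t b = ((f t : ℝ) : ℂ) • π t a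

variable {π : ∀ t, A →⋆ₙₐ[ℂ] B t} {Q : Type} [TopologicalSpace Q] [CompactSpace Q]

theorem usc [T2Space X] (hπ : FD π) (g : C₀(Q, A)) {t : X} {c c' : ℝ} (hc : 0 ≤ c)
    (hcc : c < c') (h : ∀ q, ‖π t (g q)‖ ≤ c) :
    ∃ U : Set X, IsOpen U ∧ t ∈ U ∧ ∀ s ∈ U, ∀ q, ‖π s (g q)‖ ≤ c' := by
  have hd : 0 < (c' - c) / 2 := by linarith
  have hO : ∀ q0 : Q, IsOpen {q | ‖g q - g q0‖ < (c' - c) / 2} := fun q0 =>
    isOpen_lt ((g.continuous.sub continuous_const).norm) continuous_const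
  obtain ⟨T, hT⟩ := (isCompact_univ (X := Q)).elim_nhds_subcover
    (fun q0 => {q | ‖g q - g q0‖ < (c' - c) / 2})
    (fun q0 _ => (hO q0).mem_nhds (by simp [hcc]))
  let W : Q → Set X := fun q0 => {s | (c + c') / 2 ≤ ‖π s (g q0)‖}ᶜ
  have hW : ∀ q0, IsOpen (W q0) := fun q0 =>
    (hπ.cpt (g q0) ((c + c') / 2) (by linarith)).isClosed.isOpen_compl
  refine ⟨⋂ q0 ∈ T, W q0, isOpen_biInter_finset fun q0 _ => hW q0, ?_, fun s hs q => ?_⟩
  · simp only [Set.mem_iInter]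
    intro q0 _
    show ¬ (c + c') / 2 ≤ ‖π t (g q0)‖
    have := h q0
    intro h1
    linarith
  · have h1 := hT.2 (Set.mem_univ q)
    simp only [Set.mem_iUnion, exists_prop] at h1
    obtain ⟨q0, hq0, hq⟩ := h1
    simp only [Set.mem_iInter] at hs
    have h2 : ¬ (c + c') / 2 ≤ ‖π s (g q0)‖ := hs q0 hq0
    have h3 : ‖g q - g q0‖ < (c' - c) / 2 := hq
    have h4 : π s (g q) = π s (g q0) + π s (g q - g q0) := by rw [map_sub]; abel
    rw [h4]
    have h5 : ‖π s (g q - g q0)‖ ≤ ‖g q - g q0‖ := NonUnitalStarAlgHom.norm_apply_le _ _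
    have h6 := norm_add_le (π s (g q0)) (π s (g q - g q0))
    push Not at h2
    linarith

/-- evaluation of a function with parameters along a continuous function -/
theorem exists_ev [T2Space Q] (hπ : FD π) (F : C(X, Q)) (g : C₀(Q, A)) :
    ∃ b : A, ∀ t, π t b = π t (g (F t)) := by
  have h1 : ∀ n : ℕ, ∃ b : A, ∀ t, ‖π t (g (F t)) - π t b‖ ≤ 1 / ((n : ℝ) + 1) := by
    intro n
    have hε : (0 : ℝ) < 1 / ((n : ℝ) + 1) := by positivity
    obtain ⟨m, p, f, hf, hs, h⟩ := exists_pu g.continuous hε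
    choose b hb using fun i => hπ.mul ((f i).comp F) (fun t => hf i (F t)) (g (p i))
    refine ⟨∑ i, b i, fun t => ?_⟩
    rw [map_sum]
    simp only [hb]
    refine pu_est (fun i => (hf i (F t)).1) (hs (F t)) fun i hi => ?_
    rw [← map_sub]
    exact lt_of_le_of_lt (NonUnitalStarAlgHom.norm_apply_le _ _) (h i (F t) hi)
  choose b hb using h1
  have hlim : Tendsto (fun n : ℕ => 1 / ((n : ℝ) + 1)) atTop (𝓝 0) :=
    tendsto_one_div_add_atTop_nhds_zero_nat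
  have hc : CauchySeq b := by
    rw [Metric.cauchySeq_iff']
    intro ε hε
    obtain ⟨N, hN⟩ := (hlim.eventually (gt_mem_nhds (by positivity : (0 : ℝ) < ε / 3))).exists_forall_of_atTop
    refine ⟨N, fun n hn => ?_⟩
    rw [dist_eq_norm]
    refine lt_of_le_of_lt (hπ.norm _ (2 * (ε / 3)) (by positivity) fun t => ?_)
      (by linarith : 2 * (ε / 3) < ε)
    have e1 : π t (b n - b N) = (π t (g (F t)) - π t (b N)) - (π t (g (F t)) - π t (b n)) := by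
      rw [map_sub]; abel
    rw [e1]
    have h2 := hb n t
    have h3 := hb N t
    have h4 := hN n hn
    have h5 := hN N le_rfl
    have h6 := norm_sub_le (π t (g (F t)) - π t (b N)) (π t (g (F t)) - π t (b n))
    linarith
  obtain ⟨b0, hb0⟩ := cauchySeq_tendsto_of_complete hc
  refine ⟨b0, fun t => ?_⟩
  have h2 : Tendsto (fun n => π t (b n)) atTop (𝓝 (π t b0)) :=
    ((hom_cont (π t)).tendsto b0).comp hb0
  have h3 : Tendsto (fun n => π t (b n)) atTop (𝓝 (π t (g (F t)))) := by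
    rw [tendsto_iff_norm_sub_tendsto_zero]
    refine squeeze_zero (fun n => norm_nonneg _) (fun n => ?_) hlim
    rw [norm_sub_rev]
    exact hb n t
  exact tendsto_nhds_unique h2 h3

/-- wherever `r` is small (in quotients of the fibres over points of `S`), `a` is at most `ε` -/
def FullAt (π : ∀ t, A →⋆ₙₐ[ℂ] B t) (a : A) (ε : ℝ) (S : Set (X × Q)) (r : C₀(Q, A)) : Prop :=
  ∃ η : ℝ, 0 < η ∧ ∀ (s : X) (q : Q), (s, q) ∈ S → ∀ (C : Type u) (_ : NonUnitalCStarAlgebra C)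
    (ψ : B s →⋆ₙₐ[ℂ] C), ‖ψ (π s (r q))‖ ≤ η → ‖ψ (π s a)‖ ≤ ε

theorem local_step [T2Space X] [T2Space Q] [∀ t, PartialOrder (B t)] [∀ t, StarOrderedRing (B t)]
    [PartialOrder C₀(Q, A)] [StarOrderedRing C₀(Q, A)] (hπ : FD π)
    (hB : ∀ t, EltPI (B t)) {r : C₀(Q, A)} (hr : 0 ≤ r) {a : A} {ε : ℝ} {S : Set (X × Q)}
    (hF : FullAt π a ε S r) (t : X) : ∃ U : Set X, IsOpen U ∧ t ∈ U ∧ ∃ y z : C₀(Q, A),
      0 ≤ y ∧ 0 ≤ z ∧ y * z = 0 ∧ y ∈ closure (Set.range fun w => r * w * r) ∧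
      z ∈ closure (Set.range fun w => r * w * r) ∧
      FullAt π a ε {p | p ∈ S ∧ p.1 ∈ U} y ∧ FullAt π a ε {p | p ∈ S ∧ p.1 ∈ U} z := by
  obtain ⟨η, hη, hF⟩ := hF
  obtain ⟨θ, hθ, hP⟩ := pair_of hr hη
  let _ : PartialOrder C₀(Q, B t) := CStarAlgebra.spectralOrder _
  let _ : StarOrderedRing C₀(Q, B t) := CStarAlgebra.spectralOrderedRing _
  have h1 : EltPI C₀(Q, B t) := eltPI_c0 (B t) (hB t) Q
  set ρ : C₀(Q, B t) := mp (π t) r with hρ
  have hρ0 : 0 ≤ ρ := by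
    obtain ⟨k, hk⟩ := CStarAlgebra.nonneg_iff_eq_star_mul_self.1 hr
    have e1 : ρ = star (mp (π t) k) * mp (π t) k := by
      ext q
      rw [hρ, mp_apply, hk, ZeroAtInftyContinuousMap.coe_mul, ZeroAtInftyContinuousMap.coe_mul,
        Pi.mul_apply, Pi.mul_apply, ZeroAtInftyContinuousMap.coe_star,
        ZeroAtInftyContinuousMap.coe_star, Pi.star_apply, Pi.star_apply, map_mul, map_star,
        mp_apply]
    rw [e1]
    exact star_mul_self_nonneg _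
  obtain ⟨x, y, hx, hy, hxy⟩ := h1 ρ hρ0 (θ / 2) (half_pos hθ)
  have hO : IsOpen {p : C₀(Q, B t) × C₀(Q, B t) | ‖star p.1 * ρ * p.1 - ρ‖ < θ / 2 ∧
      ‖star p.2 * ρ * p.2 - ρ‖ < θ / 2 ∧ ‖star p.1 * ρ * p.2‖ < θ / 2} := by
    have c1 : Continuous fun p : C₀(Q, B t) × C₀(Q, B t) => ‖star p.1 * ρ * p.1 - ρ‖ := by
      fun_prop
    have c2 : Continuous fun p : C₀(Q, B t) × C₀(Q, B t) => ‖star p.2 * ρ * p.2 - ρ‖ := by
      fun_prop
    have c3 : Continuous fun p : C₀(Q, B t) × C₀(Q, B t) => ‖star p.1 * ρ * p.2‖ := by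
      fun_prop
    exact (isOpen_lt c1 continuous_const).inter ((isOpen_lt c2 continuous_const).inter
      (isOpen_lt c3 continuous_const))
  have hd := (dense_mp (Q := Q) (π t) (hπ.surj t)).prodMap (dense_mp (Q := Q) (π t) (hπ.surj t))
  obtain ⟨⟨D₁, D₂⟩, hD⟩ := hd.exists_mem_open hO ⟨(x, y), hx, hy, hxy⟩
  obtain ⟨hD1, hD2, hD3⟩ := hD
  simp only [Prod.map_fst, Prod.map_snd] at hD1 hD2 hD3
  have key : ∀ (g : C₀(Q, A)) (g' : C₀(Q, B t)), (∀ q, π t (g q) = g' q) → ‖g'‖ < θ / 2 →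
      ∃ U : Set X, IsOpen U ∧ t ∈ U ∧ ∀ s ∈ U, ∀ q, ‖π s (g q)‖ ≤ θ := by
    intro g g' h2 h3
    refine usc hπ g (half_pos hθ).le (half_lt_self hθ) fun q => ?_
    rw [h2]
    exact (c0_apply_le g' q).trans h3.le
  obtain ⟨U1, hU1, ht1, H1⟩ := key (star D₁ * r * D₁ - r) _ (fun q => by
    simp only [ZeroAtInftyContinuousMap.coe_sub, ZeroAtInftyContinuousMap.coe_mul,
      ZeroAtInftyContinuousMap.coe_star, Pi.sub_apply, Pi.mul_apply, Pi.star_apply, map_sub,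
      map_mul, map_star, mp_apply, hρ]) hD1
  obtain ⟨U2, hU2, ht2, H2⟩ := key (star D₂ * r * D₂ - r) _ (fun q => by
    simp only [ZeroAtInftyContinuousMap.coe_sub, ZeroAtInftyContinuousMap.coe_mul,
      ZeroAtInftyContinuousMap.coe_star, Pi.sub_apply, Pi.mul_apply, Pi.star_apply, map_sub,
      map_mul, map_star, mp_apply, hρ]) hD2
  obtain ⟨U3, hU3, ht3, H3⟩ := key (star D₁ * r * D₂) _ (fun q => by
    simp only [ZeroAtInftyContinuousMap.coe_mul,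
      ZeroAtInftyContinuousMap.coe_star, Pi.mul_apply, Pi.star_apply,
      map_mul, map_star, mp_apply, hρ]) hD3
  obtain ⟨y, z, hy0, hz0, hyz, hyr, hzr, κ, hκ, HP⟩ := hP D₁ D₂
  have HP' : ∀ (s : X) (q : Q), s ∈ U1 ∩ (U2 ∩ U3) → ∀ (C : Type u)
      (_ : NonUnitalCStarAlgebra C) (ψ : B s →⋆ₙₐ[ℂ] C),
      (‖ψ (π s (y q))‖ ≤ κ → ‖ψ (π s (r q))‖ ≤ η) ∧
      (‖ψ (π s (z q))‖ ≤ κ → ‖ψ (π s (r q))‖ ≤ η) := by
    intro s q hs C i ψ
    exact HP C i ((ψ.comp (π s)).comp (evq q))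
      ((NonUnitalStarAlgHom.norm_apply_le ψ _).trans (H1 s hs.1 q))
      ((NonUnitalStarAlgHom.norm_apply_le ψ _).trans (H2 s hs.2.1 q))
      ((NonUnitalStarAlgHom.norm_apply_le ψ _).trans (H3 s hs.2.2 q))
  exact ⟨U1 ∩ (U2 ∩ U3), hU1.inter (hU2.inter hU3), ⟨ht1, ht2, ht3⟩, y, z, hy0, hz0, hyz, hyr,
    hzr, ⟨κ, hκ, fun s q hs C i ψ h => hF s q hs.1 C i ψ ((HP' s q hs.2 C i ψ).1 h)⟩,
    ⟨κ, hκ, fun s q hs C i ψ h => hF s q hs.1 C i ψ ((HP' s q hs.2 C i ψ).2 h)⟩⟩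

end

end Vale.Agent.P133.R2.H810
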