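import Vale.Agent.P133.R2.H810.CChain
import Vale.Agent.P133.R2.H810.CFam
import Vale.Agent.P133.H832.FieldDefs

/-!
P133 (helper810): upper semicontinuous fields with purely infinite fibres over locally compact
spaces whose compact subsets have property C.
-/

open scoped ComplexOrder ZeroAtInfty Topology
open Filter

namespace Vale.Agent.P133.R2.H810

open Vale.Agent.P133 Vale.Agent.P133.Statement Vale.Agent.P133F Vale.Agent.P133.H832
  Vale.Agent.P133.H681 Vale.Agent.P133.R2.H28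

universe u v

section

variable {X : Type v} [TopologicalSpace X] {B : X → Type u} [∀ t, NonUnitalCStarAlgebra (B t)]
  {A : Type u} [NonUnitalCStarAlgebra A] {π : ∀ t, A →⋆ₙₐ[ℂ] B t}

theorem sec_ext' (hπ : FD π) {x y : A} (h : ∀ t, π t x = π t y) : x = y := by
  have h1 := hπ.norm (x - y) 0 le_rfl fun t => by rw [map_sub, h t, sub_self, norm_zero]
  exact sub_eq_zero.1 (norm_le_zero_iff.1 h1)

theorem ev_her (hπ : FD π) (F : C(X, PQ)) {G R : A} {g r : C₀(PQ, A)}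
    (hG : ∀ t, π t G = π t (g (F t))) (hR : ∀ t, π t R = π t (r (F t)))
    (h : g ∈ closure (Set.range fun w => r * w * r)) :
    G ∈ closure (Set.range fun w => R * w * R) := by
  rw [Metric.mem_closure_iff] at h ⊢
  intro ε hε
  obtain ⟨_, ⟨w, rfl⟩, hw⟩ := h ε hε
  obtain ⟨W, hW⟩ := exists_ev hπ F w
  refine ⟨R * W * R, ⟨_, rfl⟩, ?_⟩
  rw [dist_eq_norm] at hw ⊢
  refine lt_of_le_of_lt (hπ.norm _ _ (norm_nonneg _) fun t => ?_) hw
  have e1 : π t (G - R * W * R) = π t ((g - r * w * r) (F t)) := by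
    rw [map_sub, map_mul, map_mul, hG, hR, hW, ZeroAtInftyContinuousMap.coe_sub,
      ZeroAtInftyContinuousMap.coe_mul, ZeroAtInftyContinuousMap.coe_mul, Pi.sub_apply,
      Pi.mul_apply, Pi.mul_apply, map_sub, map_mul, map_mul]
  rw [e1]
  exact (NonUnitalStarAlgHom.norm_apply_le _ _).trans (c0_apply_le _ _)

theorem ev_pos [PartialOrder A] [StarOrderedRing A] [PartialOrder C₀(PQ, A)]
    [StarOrderedRing C₀(PQ, A)] (hπ : FD π) (F : C(X, PQ)) {G : A} {g : C₀(PQ, A)}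
    (hG : ∀ t, π t G = π t (g (F t))) (hg : 0 ≤ g) : 0 ≤ G := by
  obtain ⟨k, rfl⟩ := CStarAlgebra.nonneg_iff_eq_star_mul_self.1 hg
  obtain ⟨K, hK⟩ := exists_ev hπ F k
  have e1 : G = star K * K := sec_ext' hπ fun t => by
    rw [hG, map_mul, map_star, hK, ZeroAtInftyContinuousMap.coe_mul, Pi.mul_apply,
      ZeroAtInftyContinuousMap.coe_star, Pi.star_apply, map_mul, map_star]
  rw [e1]
  exact star_mul_self_nonneg _

variable [PartialOrder A] [StarOrderedRing A]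

/-- membership in ideals can be checked on the fibres -/
theorem inId_of_pt [LocallyCompactSpace X] [T2Space X] [∀ t, PartialOrder (B t)]
    [∀ t, StarOrderedRing (B t)] (hπ : FD π) {a b : A} (ha : 0 ≤ a) {ε : ℝ} (hε : 0 < ε)
    (h : ∀ (t : X) (C : Type u) (_ : NonUnitalCStarAlgebra C) (ψ : B t →⋆ₙₐ[ℂ] C),
      ψ (π t b) = 0 → ‖ψ (π t a)‖ ≤ ε) : InId b (Vale.Agent.P133.R2.H28.cut a ε) := by
  have hπa : ∀ t, 0 ≤ π t a := by
    intro t
    obtain ⟨k, rfl⟩ := CStarAlgebra.nonneg_iff_eq_star_mul_self.1 ha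
    rw [map_mul, map_star]
    exact star_mul_self_nonneg _
  have h1 : ∀ t, InId (π t b) (π t (Vale.Agent.P133.R2.H28.cut a ε)) := by
    intro t
    have h2 : π t (Vale.Agent.P133.R2.H28.cut a ε) = Vale.Agent.P133.R2.H28.cut (π t a) ε :=
      NonUnitalStarAlgHomClass.map_cfcₙ (π t) (fun s : ℝ => max (s - ε) 0) a
        (hf := by fun_prop) (hf₀ := by simp only [zero_sub]; exact max_eq_right (by linarith))
        (hφ := hom_cont (π t)) (ha := IsSelfAdjoint.of_nonneg ha)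
        (hφa := IsSelfAdjoint.of_nonneg (hπa t))
    rw [h2]
    exact inId_cut (hπa t) (ε := ε) (fun C i ψ hψ => h t C i ψ (hψ _ rfl)) hε le_rfl
  set c : A := Vale.Agent.P133.R2.H28.cut a ε with hc
  obtain ⟨J, hJ, hJ'⟩ := isClosedIdeal_inId b
  rw [← hJ']
  refine hJ.lim fun δ hδ => ?_
  -- local approximation
  have h3 : ∀ t : X, ∃ w ∈ J, ‖π t (w - c)‖ < δ / 2 := by
    intro t
    obtain ⟨m, r, s, hrs⟩ := h1 t (δ / 2) (half_pos hδ)
    choose r' hr' using fun k => hπ.surj t (r k)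
    choose s' hs' using fun k => hπ.surj t (s k)
    refine ⟨∑ k, r' k * b * s' k, J.sum_mem fun k _ => (hJ.2 _ _ (hJ.2 _ _ ((hJ' b).2
      (InId.refl b))).1).2, ?_⟩
    rw [map_sub, map_sum]
    simp only [map_mul, hr', hs']
    exact hrs
  choose w hw hwt using h3
  let W : X → Set X := fun t => {s | δ / 2 ≤ ‖π s (w t - c)‖}ᶜ
  have hWo : ∀ t, IsOpen (W t) := fun t =>
    (hπ.cpt (w t - c) (δ / 2) (half_pos hδ)).isClosed.isOpen_compl
  set K : Set X := {t | δ / 2 ≤ ‖π t c‖} with hK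
  have hKc : IsCompact K := hπ.cpt c (δ / 2) (half_pos hδ)
  obtain ⟨T, hT⟩ := hKc.elim_nhds_subcover W
    (fun t _ => (hWo t).mem_nhds (not_le.2 (hwt t)))
  have hcov : K ⊆ ⋃ i : Fin T.card, W (T.equivFin.symm i).1 := by
    intro q hq
    have h4 := hT.2 hq
    simp only [Set.mem_iUnion, exists_prop] at h4
    obtain ⟨s, hs, hs'⟩ := h4
    refine Set.mem_iUnion.2 ⟨T.equivFin ⟨s, hs⟩, ?_⟩
    simpa using hs'
  obtain ⟨f, hf1, -⟩ := PartitionOfUnity.exists_isSubordinate_of_locallyFinite_t2space hKc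
    (fun i : Fin T.card => W (T.equivFin.symm i).1) (fun i => hWo _) (locallyFinite_of_finite _)
    hcov
  have hf0 : ∀ i t, 0 ≤ f i t := fun i t => f.nonneg i t
  have hf1' : ∀ i t, f i t ≤ 1 := fun i t => f.le_one i t
  have hfs1 : ∀ t, ∑ i, f i t ≤ 1 := fun t => by
    have := f.sum_le_one t
    rwa [finsum_eq_sum_of_fintype] at this
  have hfK : ∀ t ∈ K, ∑ i, f i t = 1 := fun t ht => by
    have := f.sum_eq_one ht
    rwa [finsum_eq_sum_of_fintype] at this
  have hmul : ∀ (g : C(X, ℝ)), (∀ t, 0 ≤ g t ∧ g t ≤ 1) → ∀ x ∈ J, ∃ v ∈ J, ∀ t,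
      π t v = ((g t : ℝ) : ℂ) • π t x := by
    intro g hg x hx
    obtain ⟨v, hv⟩ := hπ.mul g hg x
    obtain ⟨v', hv'⟩ := hπ.mul g hg v
    refine ⟨v, hJ.of_star_mul_self ?_, hv⟩
    have e1 : star v * v = star v' * x := sec_ext' hπ fun t => by
      rw [map_mul, map_mul, map_star, map_star, hv', hv, star_smul, star_smul, star_smul,
        RCLike.star_def, Complex.conj_ofReal, smul_mul_smul_comm, smul_mul_assoc, smul_mul_assoc,
        smul_smul]
    rw [e1]
    exact (hJ.2 _ _ hx).1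
  choose v hvJ hv using fun i : Fin T.card => hmul (f i) (fun t => ⟨hf0 i t, hf1' i t⟩)
    (w (T.equivFin.symm i).1) (hw _)
  refine ⟨∑ i, v i, J.sum_mem fun i _ => hvJ i, ?_⟩
  refine lt_of_le_of_lt (hπ.norm _ (δ / 2) (half_pos hδ).le fun t => ?_) (half_lt_self hδ)
  rw [map_sub, map_sum, norm_sub_rev]
  simp only [hv]
  have h6 : ∑ i, f i t = 1 ∨ ‖π t c‖ ≤ δ / 2 := by
    by_cases ht : t ∈ K
    · exact Or.inl (hfK t ht)
    · exact Or.inr (not_le.1 ht).le
  refine pu_est' (fun i => hf0 i t) (hfs1 t) h6 fun i hi => ?_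
  have h8 : t ∈ W (T.equivFin.symm i).1 := hf1 i (subset_tsupport _ hi)
  have h9 : ¬ δ / 2 ≤ ‖π t (w (T.equivFin.symm i).1 - c)‖ := h8
  rw [← norm_sub_rev, ← map_sub]
  exact not_le.1 h9

theorem global_step [T2Space X] [∀ t, PartialOrder (B t)]
    [∀ t, StarOrderedRing (B t)] [PartialOrder C₀(PQ, A)] [StarOrderedRing C₀(PQ, A)]
    (hπ : FD π) (hB : ∀ t, EltPI (B t)) {r : C₀(PQ, A)} (hr : 0 ≤ r) {a : A} {ε : ℝ}
    {S : Set (X × PQ)} (hF : FullAt π a ε S r) {K : Set X} (hK : IsCompact K) :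
    ∃ (p : ℕ) (U : Fin p → Set X) (y z : Fin p → C₀(PQ, A)), (∀ l, IsOpen (U l)) ∧
      (∀ x ∈ K, ∃ l, x ∈ U l) ∧ ∀ l, 0 ≤ y l ∧ 0 ≤ z l ∧ y l * z l = 0 ∧
      y l ∈ closure (Set.range fun w => r * w * r) ∧
      z l ∈ closure (Set.range fun w => r * w * r) ∧
      FullAt π a ε {x | x ∈ S ∧ x.1 ∈ U l} (y l) ∧ FullAt π a ε {x | x ∈ S ∧ x.1 ∈ U l} (z l) := by
  choose U hU ht y z h using fun t => local_step hπ hB hr hF t
  obtain ⟨T, hT⟩ := hK.elim_nhds_subcover U (fun t _ => (hU t).mem_nhds (ht t))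
  refine ⟨T.card, fun i => U (T.equivFin.symm i).1, fun i => y (T.equivFin.symm i).1,
    fun i => z (T.equivFin.symm i).1, fun i => hU _, fun x hx => ?_, fun i => h _⟩
  have h4 := hT.2 hx
  simp only [Set.mem_iUnion, exists_prop] at h4
  obtain ⟨s, hs, hs'⟩ := h4
  refine ⟨T.equivFin ⟨s, hs⟩, ?_⟩
  simpa using hs'

theorem exists_chain [T2Space X] [∀ t, PartialOrder (B t)]
    [∀ t, StarOrderedRing (B t)] [PartialOrder C₀(PQ, A)] [StarOrderedRing C₀(PQ, A)]
    (hπ : FD π) (hB : ∀ t, EltPI (B t)) {r₀ : C₀(PQ, A)} (hr : 0 ≤ r₀) {a : A} {ε : ℝ}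
    {S₀ : Set (X × PQ)} (hF : FullAt π a ε S₀ r₀) {K : Set X} (hK : IsCompact K) :
    ∃ (p : ℕ → ℕ) (U : ∀ i, Fin (p i) → Set X) (S : ℕ → Set (X × PQ)) (r : ℕ → C₀(PQ, A))
      (y z : ∀ i, Fin (p i) → C₀(PQ, A)), S 0 = S₀ ∧ r 0 = r₀ ∧
      (∀ i, S (i + 1) = nextS i (p i) (U i) (S i)) ∧
      (∀ i, r (i + 1) = nextR i (p i) (z i) (r i)) ∧
      (∀ i, 0 ≤ r i ∧ FullAt π a ε (S i) (r i)) ∧
      ∀ i, (∀ l, IsOpen (U i l)) ∧ (∀ x ∈ K, ∃ l, x ∈ U i l) ∧
      ∀ l, 0 ≤ y i l ∧ 0 ≤ z i l ∧ y i l * z i l = 0 ∧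
        y i l ∈ closure (Set.range fun w => r i * w * r i) ∧
        z i l ∈ closure (Set.range fun w => r i * w * r i) ∧
        FullAt π a ε {x | x ∈ S i ∧ x.1 ∈ U i l} (y i l) ∧
        FullAt π a ε {x | x ∈ S i ∧ x.1 ∈ U i l} (z i l) := by
  let State : Type _ := {s : Set (X × PQ) × C₀(PQ, A) // 0 ≤ s.2 ∧ FullAt π a ε s.1 s.2}
  choose p U y z h1 h2 h3 using fun s : State => global_step hπ hB s.2.1 s.2.2 hK
  let nxt : ℕ → State → State := fun i s =>
    ⟨(nextS i (p s) (U s) s.1.1, nextR i (p s) (z s) s.1.2),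
      nextR_nonneg i (p s) (fun l => (h3 s l).2.1) s.2.1,
      nextR_full i (p s) (fun l => (h3 s l).2.1) s.2.1 s.2.2 fun l => (h3 s l).2.2.2.2.2.2⟩
  let st : ℕ → State := fun n => Nat.rec ⟨(S₀, r₀), hr, hF⟩ (fun i s => nxt i s) n
  exact ⟨fun i => p (st i), fun i => U (st i), fun i => (st i).1.1, fun i => (st i).1.2,
    fun i => y (st i), fun i => z (st i), rfl, rfl, fun _ => rfl, fun _ => rfl,
    fun i => (st i).2, fun i => ⟨h1 (st i), h2 (st i), h3 (st i)⟩⟩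

end

section

variable {X : Type v} [TopologicalSpace X] [LocallyCompactSpace X] [T2Space X] {B : X → Type u}
  [∀ t, NonUnitalCStarAlgebra (B t)] [∀ t, PartialOrder (B t)] [∀ t, StarOrderedRing (B t)]
  {A : Type u} [NonUnitalCStarAlgebra A] [PartialOrder A] [StarOrderedRing A]
  {π : ∀ t, A →⋆ₙₐ[ℂ] B t}

/-- upper semicontinuous fields with purely infinite fibres, over locally compact Hausdorff spaces
whose compact subsets have property C, have two orthogonal large elements in every hereditary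
subalgebra -/
theorem twoOrth_of_propertyC
    (hX : ∀ K : Set X, IsCompact K → Vale.Agent.P133.R2.H778.PropertyC K) (hπ : FD π)
    (hB : ∀ t, EltPI (B t)) : TwoOrth A := by
  intro a ha δ hδ
  set K : Set X := {t | δ ≤ ‖π t a‖} with hKdef
  have hK : IsCompact K := hπ.cpt a δ hδ
  let _ : PartialOrder C₀(PQ, A) := CStarAlgebra.spectralOrder _
  let _ : StarOrderedRing C₀(PQ, A) := CStarAlgebra.spectralOrderedRing _
  let cst : A → C₀(PQ, A) := fun x => mk0 (fun _ => x) continuous_const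
  have hcst : 0 ≤ cst a := by
    obtain ⟨k, hk⟩ := CStarAlgebra.nonneg_iff_eq_star_mul_self.1 ha
    have e1 : cst a = star (cst k) * cst k := by
      ext q
      exact hk
    rw [e1]
    exact star_mul_self_nonneg _
  obtain ⟨p, U, S, r, y, z, hS0, hr0, hS, hr, hst, hd⟩ := exists_chain hπ hB hcst
    (a := a) (ε := δ) (S₀ := Set.univ) ⟨δ, hδ, fun s q _ C i ψ h => h⟩ hK
  obtain ⟨m, V, hV, hdis, hcov⟩ := family' hK (hX K hK) p U (fun i l => (hd i).1 l)
    (fun i x hx => (hd i).2.1 x hx)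
  let ι : Type := Σ i : Fin m, Fin (p i)
  obtain ⟨W, hWc, hWV, hWU⟩ := hK.finite_compact_cover (Finset.univ : Finset ι)
    (fun k : ι => V k.1 k.2) (fun k _ => (hV _ _).1) (by
      intro x hx
      obtain ⟨i, hi, l, hl⟩ := hcov x hx
      exact Set.mem_iUnion₂.2 ⟨⟨⟨i, hi⟩, l⟩, Finset.mem_univ _, hl⟩)
  have hf : ∀ k : ι, ∃ f : C(X, ℝ), Set.EqOn f 0 (V k.1 k.2)ᶜ ∧ Set.EqOn f 1 (W k) ∧
      ∀ x, f x ∈ Set.Icc (0 : ℝ) 1 := fun k => by
    obtain ⟨f, h1, h0, -, h01⟩ := exists_continuous_one_zero_of_isCompact (hWc k)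
      ((hV k.1 k.2).1.isClosed_compl)
      (Set.disjoint_left.2 fun x hx hx' => hx' (hWV k hx))
    exact ⟨f, h0, h1, h01⟩
  choose f hf0 hf1 hf01 using hf
  let F : C(X, PQ) := ⟨fun t j => if h : j.1 < m ∧ j.2 < p j.1 then
      ⟨f ⟨⟨j.1, h.1⟩, ⟨j.2, h.2⟩⟩ t, hf01 _ t⟩ else 0, by
    refine continuous_pi fun j => ?_
    by_cases h : j.1 < m ∧ j.2 < p j.1
    · simp only [dif_pos h]
      exact Continuous.subtype_mk (f _).continuous _
    · simp only [dif_neg h]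
      exact continuous_const⟩
  have hF1 : ∀ (t : X) (i : ℕ) (hi : i < m) (l : Fin (p i)),
      ((F t (i, l.1) : unitInterval) : ℝ) = f ⟨⟨i, hi⟩, l⟩ t := by
    intro t i hi l
    show ((if h : i < m ∧ l.1 < p i then
      (⟨f ⟨⟨i, h.1⟩, ⟨l.1, h.2⟩⟩ t, hf01 _ t⟩ : unitInterval) else 0 : unitInterval) : ℝ) = _
    rw [dif_pos ⟨hi, l.2⟩]
  have hF2 : ∀ (t : X) (i : ℕ) (_ : ¬ i < m) (l : ℕ), ((F t (i, l) : unitInterval) : ℝ) = 0 := by
    intro t i hi l
    show ((if h : i < m ∧ l < p i then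
      (⟨f ⟨⟨i, h.1⟩, ⟨l, h.2⟩⟩ t, hf01 _ t⟩ : unitInterval) else 0 : unitInterval) : ℝ) = _
    rw [dif_neg fun h => hi h.1]
    rfl
  have hFV : ∀ (t : X) (i : ℕ) (l : Fin (p i)), ((F t (i, l.1) : unitInterval) : ℝ) ≠ 0 →
      t ∈ V i l := by
    intro t i l hne
    by_cases hi : i < m
    · by_contra hcon
      exact hne (by rw [hF1 t i hi l]; exact hf0 ⟨⟨i, hi⟩, l⟩ hcon)
    · exact absurd (hF2 t i hi l.1) hne
  have hmem : ∀ (n : ℕ) (t : X), (t, F t) ∈ S n := by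
    intro n
    induction n with
    | zero => intro t; rw [hS0]; exact Set.mem_univ _
    | succ n ih =>
      intro t
      rw [hS]
      refine ⟨ih t, fun l l' hll => ?_, fun l hl => (hV n l).2 (hFV t n l hl)⟩
      by_contra hcon
      push Not at hcon
      exact Set.disjoint_left.1 (hdis n l l' hll) (hFV t n l hcon.1) (hFV t n l' hcon.2)
  choose R hR using fun i => exists_ev hπ F (r i)
  choose Z hZ using fun i => exists_ev hπ F (partX i (p i) (y i))
  have hR0 : ∀ i, 0 ≤ R i := fun i => ev_pos hπ F (hR i) (hst i).1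
  have hZ0 : ∀ i, 0 ≤ Z i := fun i => ev_pos hπ F (hZ i)
    (partX_nonneg i (p i) fun l => ((hd i).2.2 l).1)
  have hRa : R 0 = a := sec_ext' hπ fun t => by
    rw [hR, hr0]
    rfl
  have hRR : ∀ i, R (i + 1) ∈ closure (Set.range fun w => R i * w * R i) := fun i =>
    ev_her hπ F (hR (i + 1)) (hR i) (by
      rw [hr]
      exact nextR_mem i (p i) (hst i).1 fun l => ((hd i).2.2 l).2.2.2.2.1)
  have hZR : ∀ i, Z i ∈ closure (Set.range fun w => R i * w * R i) := fun i =>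
    ev_her hπ F (hZ i) (hR i) (partX_mem i (p i) fun l => ((hd i).2.2 l).2.2.2.1)
  have hRle : ∀ i k, R (i + k) ∈ closure (Set.range fun w => R i * w * R i) := by
    intro i k
    induction k with
    | zero => exact her_self (hR0 i)
    | succ k ih => exact her_trans (hRR (i + k)) ih
  have hRa' : ∀ i, R i ∈ closure (Set.range fun w => a * w * a) := by
    intro i
    have := hRle 0 i
    rwa [hRa, zero_add] at this
  have horth : ∀ i, Z i * R (i + 1) = 0 := fun i => sec_ext' hπ fun t => by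
    have h1 := hmem (i + 1) t
    rw [hS] at h1
    rw [map_mul, hZ, hR, hr, ← map_mul,
      partX_mul i (p i) (x := (t, F t)) (fun l => ((hd i).2.2 l).2.2.1) h1, map_zero]
  have horth' : ∀ i k, Z i * R (i + 1 + k) = 0 := by
    intro i k
    have h1 : closure (Set.range fun w => R (i + 1) * w * R (i + 1)) ⊆ {b | Z i * b = 0} := by
      refine closure_minimal ?_ (isClosed_eq (by fun_prop) continuous_const)
      rintro _ ⟨w, rfl⟩
      show Z i * (R (i + 1) * w * R (i + 1)) = 0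
      rw [← mul_assoc, ← mul_assoc, horth, zero_mul, zero_mul]
    exact h1 (hRle (i + 1) k)
  refine ⟨∑ i ∈ Finset.range m, Z i, R m, Finset.sum_nonneg fun i _ => hZ0 i, hR0 m, ?_,
    her_sum _ fun i _ => her_trans (hZR i) (hRa' i), hRa' m, ?_, ?_⟩
  · rw [Finset.sum_mul]
    refine Finset.sum_eq_zero fun i hi => ?_
    obtain ⟨k, rfl⟩ := Nat.exists_eq_add_of_lt (Finset.mem_range.1 hi)
    have := horth' i k
    rwa [show i + 1 + k = i + k + 1 by ring] at this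
  · refine inId_of_pt hπ ha hδ fun t C iC ψ hψ => ?_
    by_cases htK : t ∈ K
    swap
    · exact (NonUnitalStarAlgHom.norm_apply_le ψ _).trans (not_le.1 htK).le
    rw [hWU] at htK
    obtain ⟨⟨⟨i, hi⟩, l⟩, -, hk⟩ := Set.mem_iUnion₂.1 htK
    have hFt : ((F t (i, l.1) : unitInterval) : ℝ) = 1 := by
      rw [hF1 t i hi l]
      exact hf1 _ hk
    have hZi : ‖(ψ.comp (π t)) (Z i)‖ ≤ 0 := by
      have h1 := dom_norm (hZ0 i) (v := ∑ k ∈ (Finset.range m).erase i, Z k)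
        (Finset.sum_nonneg fun k _ => hZ0 k) (c := 1) (by norm_num) (ψ.comp (π t))
      rw [Complex.ofReal_one, one_smul, Finset.add_sum_erase _ _ (Finset.mem_range.2 hi)] at h1
      have h2 : (ψ.comp (π t)) (∑ k ∈ Finset.range m, Z k) = 0 := hψ
      rwa [h2, norm_zero, mul_zero] at h1
    have h3 : (ψ.comp (π t)) (Z i) = (ψ.comp (π t)) (partX i (p i) (y i) (F t)) :=
      congrArg ψ (hZ i t)
    obtain ⟨η, hη, H⟩ := ((hd i).2.2 l).2.2.2.2.2.1
    refine H t (F t) ⟨hmem i t, (hV i l).2 (hFV t i l (by rw [hFt]; exact one_ne_zero))⟩ C iC ψ ?_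
    have hhf : Vale.Agent.P133.R2.H810.hf i l.1 (F t) = 1 / 2 := by
      rw [hf_apply, hFt]
      norm_num
    have h4 := dom_norm (ev_nonneg ((hd i).2.2 l).1 (F t))
      (v := ∑ k ∈ Finset.univ.erase l, ((Vale.Agent.P133.R2.H810.hf i k.1 (F t) : ℝ) : ℂ) •
        y i k (F t))
      (Finset.sum_nonneg fun k _ => smul_nonneg' (hf_mem i k.1 (F t)).1
        (ev_nonneg ((hd i).2.2 k).1 (F t)))
      (c := Vale.Agent.P133.R2.H810.hf i l.1 (F t)) (by rw [hhf]; norm_num) (ψ.comp (π t))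
    rw [Finset.add_sum_erase _ (fun k : Fin (p i) =>
      ((Vale.Agent.P133.R2.H810.hf i k.1 (F t) : ℝ) : ℂ) • y i k (F t)) (Finset.mem_univ l),
      ← partX_apply, ← h3] at h4
    calc ‖ψ (π t (y i l (F t)))‖ ≤ 4 * ‖(ψ.comp (π t)) (Z i)‖ := h4
      _ ≤ η := by linarith
  · refine inId_of_pt hπ ha hδ fun t C iC ψ hψ => ?_
    obtain ⟨η, hη, H⟩ := (hst m).2
    refine H t (F t) (hmem m t) C iC ψ ?_
    rw [← hR, hψ, norm_zero]
    exact hη.le

/-- question (b) for upper semicontinuous fields over locally compact Hausdorff spaces whose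
compact subsets have property C -/
theorem twoOrth_of_sectionAlgebra
    (hX : ∀ K : Set X, IsCompact K → Vale.Agent.P133.R2.H778.PropertyC K)
    (h : IsSectionAlgebra B A) (hB : ∀ t, PurelyInfinite (B t)) : TwoOrth A := by
  obtain ⟨π, h1, h2, h3, h4⟩ := h
  exact twoOrth_of_propertyC hX (π := π) ⟨h1, h2, h3, h4⟩ fun t => eltPI_of _ (hB t)

end

end Vale.Agent.P133.R2.H810
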