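import Vale.Agent.P133.R2.H28.Conv

/-!
P133 (helper810): orthogonal pairs in hereditary subalgebras from approximate ones.
-/

open scoped ComplexOrder

namespace Vale.Agent.P133.R2.H810

open Vale.Agent.P133 Vale.Agent.P133.Statement Vale.Agent.P133F Vale.Agent.P133.H832
  Vale.Agent.P133.R2.H28

universe u

variable {M : Type u} [NonUnitalCStarAlgebra M] [PartialOrder M] [StarOrderedRing M]

/-- `f(h)` is in the hereditary subalgebra of `h` if `0 ≤ f(s) ≤ |s|` -/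
theorem cfc_mem_her {h : M} (hs : IsSelfAdjoint h) {f : ℝ → ℝ} (hf : Continuous f)
    (hf0 : ∀ s, |f s| ≤ |s|) : cfcₙ f h ∈ closure (Set.range fun w => h * w * h) := by
  have f0 : f 0 = 0 := by
    have := hf0 0
    rw [abs_zero] at this
    exact abs_eq_zero.1 (le_antisymm this (abs_nonneg _))
  rw [Metric.mem_closure_iff]
  intro ε hε
  set τ : ℝ := (ε / 2) ^ 2 with hτ
  have hτ0 : 0 < τ := by positivity
  let k : ℝ → ℝ := fun s => f s / (s * s + τ)
  have hpos : ∀ s : ℝ, 0 < s * s + τ := fun s => by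
    have := mul_self_nonneg s
    linarith
  have hden : ∀ s : ℝ, s * s + τ ≠ 0 := fun s => (hpos s).ne'
  have hk : Continuous k := hf.div (by fun_prop) hden
  have hk0 : k 0 = 0 := by simp only [k, f0, zero_div]
  refine ⟨h * cfcₙ k h * h, ⟨_, rfl⟩, ?_⟩
  have e1 : h * cfcₙ k h * h = cfcₙ (fun s => s * k s * s) h := by
    rw [cfcₙ_mul (fun s => s * k s) (fun s => s) h (by fun_prop) (by simp) (by fun_prop) rfl,
      cfcₙ_mul (fun s => s) k h (by fun_prop) rfl hk.continuousOn hk0, cfcₙ_id' ℝ h]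
  rw [dist_eq_norm, e1, ← cfcₙ_sub f (fun s => s * k s * s) h hf.continuousOn f0
    (by fun_prop) (by simp)]
  refine lt_of_le_of_lt (norm_cfcₙ_le (c := ε / 2) fun s _ => ?_) (half_lt_self hε)
  have e2 : f s - s * k s * s = f s * (τ / (s * s + τ)) := by
    have := hden s
    simp only [k]
    field_simp
    ring
  have hq0 : 0 ≤ τ / (s * s + τ) := div_nonneg hτ0.le (hpos s).le
  rw [e2, Real.norm_eq_abs, abs_mul, abs_of_nonneg hq0]
  have h1 : |s| * (τ / (s * s + τ)) ≤ ε / 2 := by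
    rw [mul_div_assoc', div_le_iff₀ (hpos s)]
    have h3 : τ = (ε / 2) * (ε / 2) := by rw [hτ]; ring
    have h4 : s * s = |s| * |s| := (abs_mul_abs_self s).symm
    rw [h4, h3]
    nlinarith [mul_nonneg (half_pos hε).le (mul_self_nonneg (|s| - ε / 2)),
      mul_nonneg (half_pos hε).le (mul_nonneg (abs_nonneg s) (half_pos hε).le)]
  exact (mul_le_mul_of_nonneg_right (hf0 s) hq0).trans h1

/-- one half of `pair_of` -/
theorem half_of {r : M} (hr : 0 ≤ r) {η : ℝ} (hη : 0 < η) {θ : ℝ} (hθ : 0 < θ) (hθ1 : θ ≤ 1)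
    (hθr : (2 * ‖r‖ + 2) * θ ≤ η ^ 2 / 2) {D₁ D₂ h y : M}
    (hh : h = CFC.sqrt r * (D₁ * star D₁) * CFC.sqrt r -
      CFC.sqrt r * (D₂ * star D₂) * CFC.sqrt r) (hhy : h ≤ y) :
    ∃ κ : ℝ, 0 < κ ∧ ∀ (C : Type u) (_ : NonUnitalCStarAlgebra C) (ψ : M →⋆ₙₐ[ℂ] C),
      ‖ψ (star D₁ * r * D₁ - r)‖ ≤ θ → ‖ψ (star D₁ * r * D₂)‖ ≤ θ → ‖ψ y‖ ≤ κ → ‖ψ r‖ ≤ η := by
  set q : M := CFC.sqrt r with hq
  have hqs : star q = q := (IsSelfAdjoint.of_nonneg (CFC.sqrt_nonneg r)).star_eq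
  have hqq : q * q = r := CFC.sqrt_mul_sqrt_self r hr
  have hrs : star r = r := (IsSelfAdjoint.of_nonneg hr).star_eq
  set V : M := q * D₁ with hV
  have hVh : star V * h * V = star D₁ * r * D₁ * (star D₁ * r * D₁) -
      star D₁ * r * D₂ * star (star D₁ * r * D₂) := by
    have e1 : star (star D₁ * r * D₂) = star D₂ * r * D₁ := by
      rw [star_mul, star_mul, star_star, hrs, mul_assoc]
    rw [e1, hV, hh, star_mul, hqs, ← hqq]
    simp only [mul_sub, sub_mul, mul_assoc]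
  refine ⟨η ^ 2 / (2 * (‖V‖ * ‖V‖ + 1)), by positivity, fun C i ψ h1 h2 hy => ?_⟩
  let _ : PartialOrder C := CStarAlgebra.spectralOrder C
  let _ : StarOrderedRing C := CStarAlgebra.spectralOrderedRing C
  set ρ : C := ψ r with hρ
  have hρs : star ρ = ρ := by rw [hρ, ← map_star, hrs]
  have hρn : ‖ρ‖ ≤ ‖r‖ := NonUnitalStarAlgHom.norm_apply_le ψ r
  set s : C := ψ (star D₁ * r * D₁ - r) with hs
  set c : C := ψ (star D₁ * r * D₂) with hc
  have e2 : ψ (star D₁ * r * D₁) = ρ + s := by rw [hs, map_sub, hρ]; abel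
  have e3 : ψ (star V * h * V) - ρ * ρ = ρ * s + s * ρ + s * s - c * star c := by
    rw [hVh, map_sub, map_mul, map_mul ψ (star D₁ * r * D₂), map_star, ← hc, e2]
    noncomm_ring
  have hn : ‖ψ (star V * h * V) - ρ * ρ‖ ≤ η ^ 2 / 2 := by
    rw [e3]
    have n1 : ‖ρ * s‖ ≤ ‖r‖ * θ := (norm_mul_le _ _).trans
      (mul_le_mul hρn h1 (norm_nonneg _) (norm_nonneg _))
    have n2 : ‖s * ρ‖ ≤ θ * ‖r‖ := (norm_mul_le _ _).trans
      (mul_le_mul h1 hρn (norm_nonneg _) hθ.le)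
    have n3 : ‖s * s‖ ≤ θ * θ := (norm_mul_le _ _).trans
      (mul_le_mul h1 h1 (norm_nonneg _) hθ.le)
    have n4 : ‖c * star c‖ ≤ θ * θ := (norm_mul_le _ _).trans
      (mul_le_mul h2 (by rw [norm_star]; exact h2) (norm_nonneg _) hθ.le)
    calc _ ≤ ‖ρ * s‖ + ‖s * ρ‖ + ‖s * s‖ + ‖c * star c‖ :=
          (norm_sub_le _ _).trans (by gcongr; exact norm_add₃_le)
      _ ≤ (2 * ‖r‖ + 2) * θ := by nlinarith [norm_nonneg r]
      _ ≤ _ := hθr
  have hle : ψ (star V * h * V) ≤ ψ (star V * y * V) := by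
    have h3 : 0 ≤ star V * (y - h) * V := star_left_conjugate_nonneg (sub_nonneg.2 hhy) V
    obtain ⟨x, hx⟩ := CStarAlgebra.nonneg_iff_eq_star_mul_self.1 h3
    have h4 : ψ (star V * y * V) - ψ (star V * h * V) = star (ψ x) * ψ x := by
      rw [← map_sub, ← map_star, ← map_mul, ← hx, mul_sub, sub_mul]
    rw [← sub_nonneg, h4]
    exact star_mul_self_nonneg _
  have hyV : ‖ψ (star V * y * V)‖ ≤ η ^ 2 / 2 := by
    rw [map_mul, map_mul]
    have hVn : ‖ψ V‖ ≤ ‖V‖ := NonUnitalStarAlgHom.norm_apply_le ψ V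
    have hVn' : ‖ψ (star V)‖ ≤ ‖V‖ := (NonUnitalStarAlgHom.norm_apply_le ψ _).trans
      (norm_star V).le
    calc _ ≤ ‖ψ (star V)‖ * ‖ψ y‖ * ‖ψ V‖ :=
          (norm_mul_le _ _).trans (by gcongr; exact norm_mul_le _ _)
      _ ≤ ‖V‖ * (η ^ 2 / (2 * (‖V‖ * ‖V‖ + 1))) * ‖V‖ := by gcongr
      _ = ‖V‖ * ‖V‖ / (‖V‖ * ‖V‖ + 1) * (η ^ 2 / 2) := by field_simp
      _ ≤ 1 * (η ^ 2 / 2) := by
          gcongr
          rw [div_le_one (by positivity)]; linarith
      _ = _ := one_mul _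
  have hρρ0 : 0 ≤ ρ * ρ := by
    have := star_mul_self_nonneg ρ
    rwa [hρs] at this
  have h5 : ‖ρ * ρ‖ ≤ η ^ 2 := by
    have h6 : ρ * ρ ≤ ψ (star V * y * V) - (ψ (star V * h * V) - ρ * ρ) := by
      rw [← sub_nonneg]
      have e4 : ψ (star V * y * V) - (ψ (star V * h * V) - ρ * ρ) - ρ * ρ =
        ψ (star V * y * V) - ψ (star V * h * V) := by abel
      rw [e4]
      exact sub_nonneg.2 hle
    calc _ ≤ ‖ψ (star V * y * V) - (ψ (star V * h * V) - ρ * ρ)‖ :=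
          CStarAlgebra.norm_le_norm_of_nonneg_of_le hρρ0 h6
      _ ≤ η ^ 2 / 2 + η ^ 2 / 2 := (norm_sub_le _ _).trans (add_le_add hyV hn)
      _ = η ^ 2 := by ring
  have h7 : ‖ρ‖ * ‖ρ‖ = ‖ρ * ρ‖ := by
    have := CStarRing.norm_star_mul_self (x := ρ)
    rw [hρs] at this
    exact this.symm
  nlinarith [norm_nonneg ρ]

/-- orthogonal pairs in the hereditary subalgebra of `r` -/
theorem pair_of {r : M} (hr : 0 ≤ r) {η : ℝ} (hη : 0 < η) : ∃ θ : ℝ, 0 < θ ∧ ∀ D₁ D₂ : M,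
    ∃ y z : M, 0 ≤ y ∧ 0 ≤ z ∧ y * z = 0 ∧ y ∈ closure (Set.range fun w => r * w * r) ∧
      z ∈ closure (Set.range fun w => r * w * r) ∧ ∃ κ : ℝ, 0 < κ ∧
      ∀ (C : Type u) (_ : NonUnitalCStarAlgebra C) (ψ : M →⋆ₙₐ[ℂ] C),
        ‖ψ (star D₁ * r * D₁ - r)‖ ≤ θ → ‖ψ (star D₂ * r * D₂ - r)‖ ≤ θ →
        ‖ψ (star D₁ * r * D₂)‖ ≤ θ → (‖ψ y‖ ≤ κ → ‖ψ r‖ ≤ η) ∧ (‖ψ z‖ ≤ κ → ‖ψ r‖ ≤ η) := by
  refine ⟨min 1 (η ^ 2 / (2 * (2 * ‖r‖ + 2))), by positivity, fun D₁ D₂ => ?_⟩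
  set θ : ℝ := min 1 (η ^ 2 / (2 * (2 * ‖r‖ + 2))) with hθ
  have hθ0 : 0 < θ := by positivity
  have hθr : (2 * ‖r‖ + 2) * θ ≤ η ^ 2 / 2 := by
    calc _ ≤ (2 * ‖r‖ + 2) * (η ^ 2 / (2 * (2 * ‖r‖ + 2))) := by
          gcongr; exact min_le_right _ _
      _ = η ^ 2 / 2 := by field_simp
  set q : M := CFC.sqrt r with hq
  have hqs : star q = q := (IsSelfAdjoint.of_nonneg (CFC.sqrt_nonneg r)).star_eq
  have hrs : star r = r := (IsSelfAdjoint.of_nonneg hr).star_eq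
  set h : M := q * (D₁ * star D₁) * q - q * (D₂ * star D₂) * q with hh
  have hsa : IsSelfAdjoint h := by
    show star h = h
    rw [hh, star_sub, star_mul, star_mul, star_mul, star_mul, star_mul, star_mul, star_star,
      star_star, hqs]
    simp only [mul_assoc]
  have hher : h ∈ closure (Set.range fun w => r * w * r) := by
    have h1 : h = q * (D₁ * star D₁ - D₂ * star D₂) * q := by
      rw [hh, mul_sub, sub_mul]
    rw [h1]
    exact sqrt_conj_her hr _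
  set y : M := cfcₙ (fun s : ℝ => max s 0) h with hy
  set z : M := cfcₙ (fun s : ℝ => max (-s) 0) h with hz
  have hyz : y - z = h := by
    rw [hy, hz, ← cfcₙ_sub (fun s : ℝ => max s 0) (fun s : ℝ => max (-s) 0) h (by fun_prop)
      (by simp) (by fun_prop) (by simp)]
    conv_rhs => rw [← cfcₙ_id' ℝ h]
    refine cfcₙ_congr fun s _ => ?_
    rcases le_total s 0 with hs | hs
    · rw [max_eq_right hs, max_eq_left (by linarith)]; ring
    · rw [max_eq_left hs, max_eq_right (by linarith)]; ring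
  have hy0 : 0 ≤ y := cfcₙ_nonneg fun s _ => le_max_right _ _
  have hz0 : 0 ≤ z := cfcₙ_nonneg fun s _ => le_max_right _ _
  have hprod : y * z = 0 := by
    rw [hy, hz, ← cfcₙ_mul (fun s : ℝ => max s 0) (fun s : ℝ => max (-s) 0) h (by fun_prop)
      (by simp) (by fun_prop) (by simp), ← cfcₙ_const_zero ℝ h]
    refine cfcₙ_congr fun s _ => ?_
    rcases le_total s 0 with hs | hs
    · rw [max_eq_right hs, zero_mul]
    · rw [max_eq_right (by linarith : -s ≤ 0), mul_zero]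
  have hyh : y ∈ closure (Set.range fun w => h * w * h) :=
    cfc_mem_her hsa (by fun_prop) fun s => by
      rcases le_total s 0 with hs | hs
      · rw [max_eq_right hs, abs_zero]; exact abs_nonneg _
      · rw [max_eq_left hs]
  have hzh : z ∈ closure (Set.range fun w => h * w * h) :=
    cfc_mem_her hsa (by fun_prop) fun s => by
      rcases le_total s 0 with hs | hs
      · rw [max_eq_left (by linarith : 0 ≤ -s), abs_neg]
      · rw [max_eq_right (by linarith : -s ≤ 0), abs_zero]; exact abs_nonneg _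
  have hle1 : h ≤ y := by
    rw [← hyz]; exact sub_le_self _ hz0
  have hle2 : -h ≤ z := by
    rw [← hyz, neg_sub]; exact sub_le_self _ hy0
  obtain ⟨κ₁, hκ₁, H1⟩ := half_of hr hη hθ0 (min_le_left _ _) hθr hh hle1
  obtain ⟨κ₂, hκ₂, H2⟩ := half_of hr hη hθ0 (min_le_left _ _) hθr (D₁ := D₂) (D₂ := D₁)
    (h := -h) (by rw [hh, neg_sub]) hle2
  refine ⟨y, z, hy0, hz0, hprod, her_trans hyh hher, her_trans hzh hher, min κ₁ κ₂,
    lt_min hκ₁ hκ₂, fun C i ψ h1 h2 h3 => ⟨fun h4 => H1 C i ψ h1 h3 (h4.trans (min_le_left _ _)),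
    fun h4 => H2 C i ψ h2 ?_ (h4.trans (min_le_right _ _))⟩⟩
  have e1 : star D₂ * r * D₁ = star (star D₁ * r * D₂) := by
    rw [star_mul, star_mul, star_star, hrs, mul_assoc]
  rw [e1, map_star, norm_star]
  exact h3

end Vale.Agent.P133.R2.H810
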